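import Vale.Agent.P097.H217.St.Walls
import Vale.Agent.P097.H226.W.Defs2
import Vale.Agent.P097.H509.St.Defs
import Vale.Agent.P097.H320.W5.StInst
import Vale.Agent.P097.H320.W5.StGen

/-!
# P097 / block (T), straight line, ST-10 (a): the inputs of `SelSt` at the nested points

`sel_in` : from the hypotheses of `A5.PT` the hypotheses of `H509.St.SelSt` at `(y n, u n)`, unit
scale `S ≤ τ g n`.
`sw_ev` : the world with the wide tube, all slopes below `s - k u₀`.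
-/

set_option linter.all false

open Complex Metric Filter Topology Set MeasureTheory
open scoped ComplexConjugate

namespace Vale.Agent.P097.H217.St

open Vale.Agent.P097.TC Vale.Agent.P097.A5 Vale.Agent.P097.H85 Vale.Agent.P097.H929
open Vale.Agent.P097.H226.W (SQ SW Md Vq Bx Qu)

/-- `Md` is monotone in its constants -/
theorem md_mono {b : ℝ} {F : ℂ → ℂ} {th : ℂ × ℂ → ℂ} {X X' om om' e e' h : ℝ} (hh : 0 ≤ h)
    (hX : X ≤ X') (hom : om' ≤ om) (he : e' ≤ e) (hM : Md b F th X om e h) :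
    Md b F th X' om' e' h := by
  obtain ⟨β, h1, h2, h3, h4, h5⟩ := hM
  have a1 : om' * h ≤ om * h := mul_le_mul_of_nonneg_right hom hh
  have a2 : X * h ≤ X' * h := mul_le_mul_of_nonneg_right hX hh
  exact ⟨β, a1.trans h1, a1.trans h2, h3.trans a2, h4.trans (by linarith), he.trans h5⟩

/-- a property which holds almost everywhere holds at some point near zero -/
theorem exists_near {Q : ℝ → Prop} {r : ℝ} (hr : 0 < r) (h : ∀ᵐ y : ℝ, |y| ≤ r → Q y) {ε : ℝ}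
    (hε : 0 < ε) : ∃ y : ℝ, |y| < ε ∧ Q y := by
  by_contra hcon
  push Not at hcon
  have h1 : volume (Ioo (-(min ε r)) (min ε r)) = 0 := by
    refine measure_mono_null (fun x hx => ?_) (ae_iff.1 h)
    have h2 : |x| < min ε r := abs_lt.2 hx
    show ¬ (|x| ≤ r → Q x)
    intro h3
    exact hcon x (h2.trans_le (min_le_left _ _)) (h3 (h2.le.trans (min_le_right _ _)))
  rw [Real.volume_Ioo, ENNReal.ofReal_eq_zero] at h1
  have h3 : 0 < min ε r := lt_min hε hr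
  linarith

section
variable {Λ H : ℝ} {F q : ℂ → ℂ} {b m : ℝ} {Ψ : ℂ → ℂ} {Mj Mk B : Set (ℂ × ℂ)} {A : Set ℝ}
  {P : ℝ → ℂ} {c k : ℝ → ℝ} {K y₀ u₀ σ s : ℝ} {al p th : ℂ × ℂ → ℂ} {J : ℂ → ℂ}

/-- eventually close labels and real parts -/
theorem ev_close {y u : ℕ → ℝ} (hS : Sq A y₀ u₀ y u) {d : ℝ} (hd : 0 < d) :
    ∀ᶠ n in atTop, |u n - u₀| < d ∧ |y n - y₀| < d := by
  have h1 := Metric.tendsto_nhds.1 hS.ut d hd
  have h2 := Metric.tendsto_nhds.1 hS.yt d hd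
  simp only [Real.dist_eq] at h1 h2
  exact h1.and h2

/-- **the inputs of `SelSt`** : from the hypotheses of `A5.PT` (bounded `Im del` only), all unit
scales `S ≤ τ`, `S ≤ τ g n` -/
theorem sel_in (hB : H226.W.Brg)
    (W : W5 Λ H F q b m Ψ Mj Mk B A P c k K y₀ u₀ σ s al p th J) {y u : ℕ → ℝ}
    (hS : Sq A y₀ u₀ y u) {C c₁ : ℝ} (hC : 0 < C) (hc : 0 < c₁) {h g : ℕ → ℝ} {V₁ : ℝ}
    (hN : ∀ n, Nst H b F P th C c₁ (h n) (y n) (u n)) (hg : ∀ n, 0 < g n ∧ g n < h n)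
    (hL : ∀ᶠ n in atTop, ∀ S : ℝ, 0 < S → S ≤ g n → |Vn F P al th y u n S| ≤ V₁)
    {d : ℝ} (hd : 0 < d) (hw : ∀ n, ∀ᵐ y' : ℝ, |y' - y₀| < d →
      Tendsto (fun S : ℝ => |(th (vp P y' (u n) S)).im|) (𝓝[>] 0) (𝓝 H)) :
    ∃ X om e V τ : ℝ, 2 ≤ X ∧ 0 < om ∧ om ≤ 1 / 2 ∧ 0 < e ∧ 0 ≤ V ∧ 0 < τ ∧ τ ≤ 1 ∧
      ∀ᶠ n in atTop, ∀ S : ℝ, 0 < S → S ≤ τ → S ≤ τ * g n →
        SQ Λ H F q 1 (al ∘ H560.Sm P Ψ (y n) (u n) S) (p ∘ H560.Sm P Ψ (y n) (u n) S)
          (th ∘ H560.Sm P Ψ (y n) (u n) S) ∧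
        (∀ t : ℝ, 0 < t → (X + 5) * t ≤ 1 →
          Md H F (th ∘ H560.Sm P Ψ (y n) (u n) S) X om e t ∧
          |Vq F (al ∘ H560.Sm P Ψ (y n) (u n) S) (th ∘ H560.Sm P Ψ (y n) (u n) S) t| ≤ V) ∧
        ∀ ε > 0, ∃ y' : ℝ, |y'| < ε ∧
          Tendsto (fun t : ℝ => |((th ∘ H560.Sm P Ψ (y n) (u n) S) (H845.St.pt y' 0 t)).im|)
            (𝓝[>] 0) (𝓝 H) := by
  obtain ⟨X, om, e, K₃, d₁, hX, hom, hom1, he, hK₃, hd₁, hd₁1, hBr⟩ := hB W C c₁ hC hc
  obtain ⟨d₂, hd₂, hI⟩ := H320.W.inst W 1 one_pos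
  refine ⟨max X 2, min om (1 / 2), e, K₃ * (1 + 2 * |V₁|), min (min d₁ d₂) (d / 4), le_max_right _ _,
    lt_min hom (by norm_num), min_le_right _ _, he, by positivity, by positivity,
    (min_le_left _ _).trans ((min_le_left _ _).trans hd₁1), ?_⟩
  filter_upwards [hL, ev_close hS hd₁, ev_close hS hd₂, ev_close hS (show (0 : ℝ) < d / 2 by
    positivity)] with n hLn hn1 hn2 hn3 S hS0 hSτ hSg
  have hS1 : S ≤ d₁ := hSτ.trans ((min_le_left _ _).trans (min_le_left _ _))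
  have hS2 : S ≤ d₂ := hSτ.trans ((min_le_left _ _).trans (min_le_right _ _))
  have hS3 : S ≤ d / 4 := hSτ.trans (min_le_right _ _)
  have hgn := hg n
  have hSg1 : S ≤ d₁ * g n := hSg.trans (mul_le_mul_of_nonneg_right
    ((min_le_left _ _).trans (min_le_left _ _)) hgn.1.le)
  have hSh : S ≤ d₁ * h n := hSg1.trans (mul_le_mul_of_nonneg_left hgn.2.le hd₁.le)
  have hSgn : S ≤ g n := hSg1.trans (by nlinarith [hgn.1])
  refine ⟨(hI (u n) (hS.uA n) hn2.1 (y n) hn2.2 S hS0 hS2).1, ?_, ?_⟩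
  · intro t ht htX
    have ht1 : t ≤ 1 := by
      have h1 : 1 * t ≤ (max X 2 + 5) * t := by
        refine mul_le_mul_of_nonneg_right ?_ ht.le
        linarith [le_max_right X 2]
      linarith
    obtain ⟨hM, hV⟩ := hBr (u n) (hS.uA n) hn1.1 (y n) hn1.2 (h n) (hN n) S hS0 hS1 hSh t ht ht1
    refine ⟨md_mono ht.le (le_max_left _ _) (min_le_left _ _) le_rfl hM, ?_⟩
    have hb := hLn (S * t) (by positivity) (by nlinarith)
    have hv := (abs_le.1 (hb.trans (le_abs_self V₁)))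
    have hv' : |(del F al th (vp P (y n) (u n) (S * t))).im| ≤ |V₁| := hb.trans (le_abs_self V₁)
    rw [abs_le] at hv'
    have key : ∀ sg : ℝ, (sg = 1 ∨ sg = -1) →
        max (sg * (-2 * (del F al th (vp P (y n) (u n) (S * t))).im)) 0 ≤ 2 * |V₁| := by
      rintro sg (rfl | rfl)
      · exact max_le (by linarith) (by positivity)
      · exact max_le (by linarith) (by positivity)
    have b1 := (hV 1 (Or.inl rfl)).1
    have b2 := (hV (-1) (Or.inr rfl)).1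
    have c1 : K₃ * (1 + max (1 * (-2 * (del F al th (vp P (y n) (u n) (S * t))).im)) 0) ≤
        K₃ * (1 + 2 * |V₁|) := mul_le_mul_of_nonneg_left (by linarith [key 1 (Or.inl rfl)])
          (by linarith)
    have c2 : K₃ * (1 + max (-1 * (-2 * (del F al th (vp P (y n) (u n) (S * t))).im)) 0) ≤
        K₃ * (1 + 2 * |V₁|) := mul_le_mul_of_nonneg_left (by linarith [key (-1) (Or.inr rfl)])
          (by linarith)
    have b1' := b1.trans c1
    have b2' := b2.trans c2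
    rw [one_mul] at b1'
    rw [abs_le]
    constructor
    · have : -1 * Vq F (al ∘ H560.Sm P Ψ (y n) (u n) S) (th ∘ H560.Sm P Ψ (y n) (u n) S) t ≤
          K₃ * (1 + 2 * |V₁|) := b2'
      linarith
    · exact b1'
  · intro ε hε
    have hwn := walls_ae W (hS.uA n) (hw n) (y := y n) (ρ := S) (r := 1) hS0 (by linarith [hn3.2])
    obtain ⟨y', hy', hT⟩ := exists_near one_pos hwn hε
    refine ⟨y', hy', hT.congr fun t => ?_⟩
    have e1 : H845.St.pt y' 0 t = ((y' : ℂ) - (t : ℂ) * I, (t : ℂ) * I) := by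
      rw [H845.St.pt]
      refine Prod.ext rfl ?_
      simp
    rw [e1]

/-- **the world with the wide tube** at all late points of the sequence, all small unit scales -/
theorem sw_ev (W : W5 Λ H F q b m Ψ Mj Mk B A P c k K y₀ u₀ σ s al p th J) {y u : ℕ → ℝ}
    (hS : Sq A y₀ u₀ y u) {γ : ℝ} (hγ : 0 < γ) :
    ∃ τ > 0, ∀ᶠ n in atTop, ∀ S : ℝ, 0 < S → S ≤ τ → ∀ δ : ℝ, 0 < δ → δ ≤ s - k (u n) - γ →
      SW Λ H F q δ 1 (al ∘ H560.Sm P Ψ (y n) (u n) S) (p ∘ H560.Sm P Ψ (y n) (u n) S)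
        (th ∘ H560.Sm P Ψ (y n) (u n) S) := by
  obtain ⟨d, hd, hI⟩ := H320.W.inst W γ hγ
  refine ⟨d, hd, ?_⟩
  filter_upwards [ev_close hS hd] with n hn S hS0 hSd δ hδ hδs
  exact (hI (u n) (hS.uA n) hn.1 (y n) hn.2 S hS0 hSd).2 δ hδ hδs

/-- the periodicity of the curve -/
theorem per_of (W : W5 Λ H F q b m Ψ Mj Mk B A P c k K y₀ u₀ σ s al p th J) :
    H509.St.Per H F q := ⟨W.crv.Fp, W.crv.qp⟩

/-- the growth of the curve -/
theorem grw_of' (W : W5 Λ H F q b m Ψ Mj Mk B A P c k K y₀ u₀ σ s al p th J) :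
    H226.W.Grw H F q := H320.W.grw_of W.crv.gro

end

end Vale.Agent.P097.H217.St
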