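import Vale.Agent.P097.TC.Defs5
import Vale.Agent.P097.H560.Gen
import Vale.Agent.P097.H983.Har
import Vale.Agent.P097.H881.Ch

/-!
# P097 / block (T), straight line: from the label vertical to the axis points over the same label

`ch_wall` : the distance of the position to the walls along a chain of balls.
`wall_pt` : it is comparable at `vp P y u (L t)` and at the axis point of depth `t`.
`walls_st` : walls on the label vertical give walls on the axis.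
-/

set_option linter.all false

open Complex Metric Filter Topology Set MeasureTheory
open scoped ComplexConjugate

namespace Vale.Agent.P097.H217.St

open Vale.Agent.P097.TC Vale.Agent.P097.A5 Vale.Agent.P097.H85 Vale.Agent.P097.H929
open Vale.Agent.P097.H881 (Ch)

/-- the distance to the walls along a chain -/
theorem ch_wall {E : Type*} [NormedAddCommGroup E] [NormedSpace ℂ E] {U : Set E} {θ : E → ℂ}
    {H : ℝ} (hθ : DifferentiableOn ℂ θ U) (hs : ∀ y ∈ U, |(θ y).im| < H) {n : ℕ} {z w : E}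
    {R R' : ℝ} (h : Ch U n z R w R') :
    H - |(θ w).im| ≤ 2 ^ n * (H - |(θ z).im|) ∧ H - |(θ z).im| ≤ 2 ^ n * (H - |(θ w).im|) := by
  induction h with
  | refl _ _ => simp
  | @step n z w v R R' R'' h hRR hv hR hU ih =>
    obtain ⟨h0, h1⟩ := h.stop
    have hv' : ‖v - w‖ < R' := by linarith
    have hW := H983.wall_ball (hθ.mono h1) (fun y hy => hs y (h1 hy)) hv'
    have hw : 0 < H - |(θ w).im| := by linarith [hs w (h1 (mem_ball_self h0))]
    have hvU : 0 < H - |(θ v).im| := by linarith [hs v (hU (mem_ball_self hR))]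
    have a1 : H - |(θ v).im| ≤ 2 * (H - |(θ w).im|) := by
      have := hW.2
      nlinarith [norm_nonneg (v - w)]
    have a2 : H - |(θ w).im| ≤ 2 * (H - |(θ v).im|) := by
      have := hW.1
      nlinarith [norm_nonneg (v - w)]
    have p0 : (0 : ℝ) < 2 ^ n := by positivity
    obtain ⟨i1, i2⟩ := ih
    rw [pow_succ]
    constructor
    · nlinarith
    · nlinarith

theorem ax_fst (t : ℝ) : (H226.W.ax t).1 = -((t : ℂ) * I) := rfl
theorem ax_snd (t : ℝ) : (H226.W.ax t).2 = (t : ℂ) * I := rfl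

theorem norm_le_of_parts {z : ℂ} {a b : ℝ} (h1 : |z.re| ≤ a) (h2 : |z.im| ≤ b) : ‖z‖ ≤ a + b :=
  (norm_le_abs_re_add_abs_im z).trans (add_le_add h1 h2)

/-- labels stay away from zero -/
theorem lab_pos {A : Set ℝ} (hA : IsCompact A) (h0 : ∀ u ∈ A, u ≠ 0) :
    ∃ d > 0, ∀ u ∈ A, d ≤ |u| := by
  rcases A.eq_empty_or_nonempty with h | h
  · exact ⟨1, one_pos, fun u hu => by rw [h] at hu; exact absurd hu (notMem_empty u)⟩
  · obtain ⟨u₁, hu₁, hm⟩ := hA.exists_isMinOn h continuous_abs.continuousOn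
    exact ⟨|u₁|, abs_pos.2 (h0 u₁ hu₁), fun u hu => hm hu⟩

/-- the edge stays above the lower level -/
theorem edge_pos {A : Set ℝ} {P : ℝ → ℂ} {b : ℝ} (hA : IsCompact A)
    (hR : ContinuousOn (fun u => (P u).im) A)
    (hb : ∀ u ∈ A, b < (P u).im) : ∃ d > 0, ∀ u ∈ A, b + d ≤ (P u).im := by
  rcases A.eq_empty_or_nonempty with h | h
  · exact ⟨1, one_pos, fun u hu => by rw [h] at hu; exact absurd hu (notMem_empty u)⟩
  · obtain ⟨u₁, hu₁, hm⟩ := hA.exists_isMinOn h hR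
    refine ⟨(P u₁).im - b, by linarith [hb u₁ hu₁], fun u hu => ?_⟩
    have : (P u₁).im ≤ (P u).im := hm hu
    linarith

section
variable {Mj Mk B : Set (ℂ × ℂ)} {b m : ℝ} {Ψ : ℂ → ℂ}

/-- the ball around the label point -/
theorem ball_vp (Bj : B ⊆ Mj) (Bk : B ⊆ Mk) {u c R K T δ L t y' : ℝ}
    (hcone : ∀ v : ℂ, ‖v‖ < δ → ∀ t : ℂ, b < t.im →
      t.im < R + c * v.re - K * |v.im| - 1 * ‖v‖ → (t, (u : ℂ) + v) ∈ B)
    (hc : |c| ≤ T) (hK : 0 ≤ K) (hL : L = 160 * (2 + T + K)) (ht : 0 < t) (hδ : 160 * t < δ)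
    (hb : b < R - 2 * (L * t)) (hu : 160 * t ≤ |u|) :
    ball (((y' : ℂ) + ((R - L * t : ℝ) : ℂ) * I, (u : ℂ)) : ℂ × ℂ) (160 * t) ⊆ Dm Mj Mk := by
  intro x hx
  have T0 : 0 ≤ T := (abs_nonneg _).trans hc
  rw [mem_ball, dist_eq_norm] at hx
  have x1 : ‖x.1 - ((y' : ℂ) + ((R - L * t : ℝ) : ℂ) * I)‖ < 160 * t :=
    (norm_fst_le (x - _)).trans_lt hx
  have x2 : ‖x.2 - (u : ℂ)‖ < 160 * t := (norm_snd_le (x - _)).trans_lt hx
  have x1i := (abs_im_le_norm _).trans_lt x1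
  have e0 : (x.1 - ((y' : ℂ) + ((R - L * t : ℝ) : ℂ) * I)).im = x.1.im - (R - L * t) := by simp
  rw [e0, abs_lt] at x1i
  have hx2 : x.2 = (u : ℂ) + (x.2 - u) := by ring
  have e1 : x = (x.1, (u : ℂ) + (x.2 - u)) := Prod.ext rfl hx2
  have hvr := abs_re_le_norm (x.2 - u)
  have hvi := abs_im_le_norm (x.2 - u)
  have f3 : L * t = 160 * t * 2 + T * (160 * t) + K * (160 * t) := by rw [hL]; ring
  have f4 : 0 ≤ T * (160 * t) := by positivity
  have f5 : 0 ≤ K * (160 * t) := by positivity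
  have hmem : x ∈ B := by
    rw [e1]
    refine hcone (x.2 - u) (x2.trans hδ) x.1 (by linarith) ?_
    have f1 : -(T * (160 * t)) ≤ c * (x.2 - u).re := by
      have h1 : |c * (x.2 - u).re| ≤ T * (160 * t) := by
        rw [abs_mul]
        exact mul_le_mul hc (hvr.trans x2.le) (abs_nonneg _) T0
      exact (abs_le.1 h1).1
    have f2 : K * |(x.2 - u).im| ≤ K * (160 * t) :=
      mul_le_mul_of_nonneg_left (hvi.trans x2.le) hK
    linarith
  refine ⟨⟨Bj hmem, Bk hmem⟩, ?_⟩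
  intro h0
  rw [h0, zero_sub, norm_neg, Complex.norm_real, Real.norm_eq_abs] at x2
  linarith

/-- the comparison function at the axis -/
theorem psi_ax {u ρ c k t : ℝ} {P₀ : ℂ} (hj : Cmp Mj b m Ψ u ρ P₀ c k 1 (1 / 12))
    (ht : 0 < t) (hρ : t < ρ) :
    |(Ψ ((u : ℂ) + (t : ℂ) * I)).re - P₀.re + c * t| ≤ 1 / 12 * t ∧
      |(Ψ ((u : ℂ) + (t : ℂ) * I)).im - P₀.im - k * t| ≤ 1 / 12 * t := by
  have w0r : ((u : ℂ) + (t : ℂ) * I).re = u := by simp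
  have w0i : ((u : ℂ) + (t : ℂ) * I).im = t := by simp
  have hn0 := hj.nt ((u : ℂ) + (t : ℂ) * I) (by rw [w0r, sub_self, abs_zero]; linarith)
    (by rw [w0i]; exact ht) (by rw [w0i]; exact hρ)
    (by rw [w0r, w0i, sub_self, abs_zero]; linarith)
  have ew : ((u : ℂ) + (t : ℂ) * I) - (u : ℂ) = (t : ℂ) * I := by ring
  have nw : ‖((u : ℂ) + (t : ℂ) * I) - (u : ℂ)‖ = t := by
    rw [ew, norm_mul, Complex.norm_real, Complex.norm_I, mul_one, Real.norm_eq_abs, abs_of_pos ht]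
  rw [nw, ew] at hn0
  have r0 := (abs_re_le_norm _).trans hn0
  have i0 := (abs_im_le_norm _).trans hn0
  have er : (Ψ ((u : ℂ) + (t : ℂ) * I) - P₀ - (I * c + k) * ((t : ℂ) * I)).re =
      (Ψ ((u : ℂ) + (t : ℂ) * I)).re - P₀.re + c * t := by simp
  have ei : (Ψ ((u : ℂ) + (t : ℂ) * I) - P₀ - (I * c + k) * ((t : ℂ) * I)).im =
      (Ψ ((u : ℂ) + (t : ℂ) * I)).im - P₀.im - k * t := by simp
  rw [er] at r0
  rw [ei] at i0
  exact ⟨r0, i0⟩

/-- points near the axis -/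
theorem near_ax {u ρ c k T ω t X : ℝ} {P₀ : ℂ} (hj : Cmp Mj b m Ψ u ρ P₀ c k 1 (1 / 12))
    (hk : Cmp Mk b m Ψ u ρ P₀ c k 1 (1 / 12)) (hc : |c| ≤ T) (hkT : |k| ≤ T)
    (hω0 : 0 < ω) (hω : ω * (4 * (1 + T)) ≤ 1) (ht : 0 < t) (hρ : 2 * t < ρ) {x : ℂ × ℂ}
    (hx2 : ‖x.2 - ((u : ℂ) + (t : ℂ) * I)‖ < ω * t) (hb : b < x.1.im)
    (hX : X ≤ P₀.im + k * t + 1 / 12 * t - t) (hx : x.1.im < X + ω * t) : x ∈ Dm Mj Mk := by
  have T0 : 0 ≤ T := (abs_nonneg _).trans hc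
  have hωt : 0 < ω * t := by positivity
  have hωT : ω * t * T ≤ t / 4 - ω * t := by
    have h1 : ω * (4 * (1 + T)) * t ≤ 1 * t := mul_le_mul_of_nonneg_right hω ht.le
    nlinarith
  have hωT0 : 0 ≤ ω * t * T := by positivity
  have hωt4 : ω * t ≤ t / 4 := by linarith
  have w0r : ((u : ℂ) + (t : ℂ) * I).re = u := by simp
  have w0i : ((u : ℂ) + (t : ℂ) * I).im = t := by simp
  have ew : ((u : ℂ) + (t : ℂ) * I) - (u : ℂ) = (t : ℂ) * I := by ring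
  have nw : ‖((u : ℂ) + (t : ℂ) * I) - (u : ℂ)‖ = t := by
    rw [ew, norm_mul, Complex.norm_real, Complex.norm_I, mul_one, Real.norm_eq_abs, abs_of_pos ht]
  have x2r := (abs_re_le_norm (x.2 - ((u : ℂ) + (t : ℂ) * I))).trans_lt hx2
  have x2i := (abs_im_le_norm (x.2 - ((u : ℂ) + (t : ℂ) * I))).trans_lt hx2
  rw [sub_re, w0r] at x2r
  rw [sub_im, w0i, abs_lt] at x2i
  have xi0 : 0 < x.2.im := by linarith
  have xi1 : x.2.im < 2 * t := by linarith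
  have nxu : ‖x.2 - (u : ℂ)‖ ≤ 2 * t := by
    have h1 : x.2 - (u : ℂ) = (x.2 - ((u : ℂ) + (t : ℂ) * I)) + (((u : ℂ) + (t : ℂ) * I) - u) := by
      ring
    rw [h1]
    refine (norm_add_le _ _).trans ?_
    rw [nw]
    linarith
  have hcone1 : (1 : ℝ) * |x.2.re - u| ≤ x.2.im := by
    rw [one_mul]; linarith
  have tj := hj.nt x.2 (by linarith) xi0 (by linarith) hcone1
  have j0 := (abs_im_le_norm _).trans (tj.trans
    (mul_le_mul_of_nonneg_left nxu (by norm_num : (0 : ℝ) ≤ 1 / 12)))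
  have ej : (Ψ x.2 - P₀ - (I * c + k) * (x.2 - u)).im =
      (Ψ x.2).im - P₀.im - c * (x.2.re - u) - k * x.2.im := by
    simp
    ring
  rw [ej, abs_le] at j0
  have f1 : |c * (x.2.re - u)| ≤ T * (ω * t) := by
    rw [abs_mul]
    exact mul_le_mul hc x2r.le (abs_nonneg _) T0
  have f2 : |k * (x.2.im - t)| ≤ T * (ω * t) := by
    rw [abs_mul]
    refine mul_le_mul hkT ?_ (abs_nonneg _) T0
    exact (abs_le.2 ⟨by linarith, by linarith⟩)
  rw [abs_le] at f1 f2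
  have f3 : k * (x.2.im - t) = k * x.2.im - k * t := by ring
  rw [f3] at f2
  have f4 : T * (ω * t) = ω * t * T := by ring
  rw [f4] at f1 f2
  have hup : x.1.im < (Ψ x.2).im := by linarith
  refine ⟨⟨hj.base x.1 x.2 (by linarith) xi0 (by linarith) hb hup,
    hk.base x.1 x.2 (by linarith) xi0 (by linarith) hb hup⟩, ?_⟩
  intro h0
  rw [h0, zero_im] at xi0
  exact lt_irrefl _ xi0

/-- the tube around the segment from the point below the axis point to the axis point -/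
theorem seg_ax {u ρ c k T ω t R L y' : ℝ} {P₀ : ℂ} (hj : Cmp Mj b m Ψ u ρ P₀ c k 1 (1 / 12))
    (hk : Cmp Mk b m Ψ u ρ P₀ c k 1 (1 / 12)) (hc : |c| ≤ T) (hkT : |k| ≤ T)
    (hω0 : 0 < ω) (hω : ω * (4 * (1 + T)) ≤ 1) (ht : 0 < t) (hρ : 2 * t < ρ)
    (hLT : T + 2 ≤ L) (hb : b < P₀.im - 2 * (L * t)) :
    ∀ τ ∈ Icc (0 : ℝ) 1, ball ((((y' : ℂ) + ((P₀.im - L * t : ℝ) : ℂ) * I, (u : ℂ) + (t : ℂ) * I) :
        ℂ × ℂ) + (τ : ℂ) • (((((y' - P₀.re : ℝ) : ℂ) - (t : ℂ) * I + Ψ ((u : ℂ) + (t : ℂ) * I),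
        (u : ℂ) + (t : ℂ) * I) : ℂ × ℂ) -
        ((y' : ℂ) + ((P₀.im - L * t : ℝ) : ℂ) * I, (u : ℂ) + (t : ℂ) * I))) (ω * t) ⊆ Dm Mj Mk := by
  intro τ hτ x hx
  have T0 : 0 ≤ T := (abs_nonneg _).trans hc
  obtain ⟨-, i0⟩ := psi_ax hj ht (by linarith)
  have hkt : |k * t| ≤ T * t := by
    rw [abs_mul, abs_of_pos ht]; exact mul_le_mul_of_nonneg_right hkT ht.le
  rw [abs_le] at hkt i0
  have hTL : (T + 2) * t ≤ L * t := mul_le_mul_of_nonneg_right hLT ht.le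
  rw [mem_ball, dist_eq_norm] at hx
  set w₀ : ℂ := (u : ℂ) + (t : ℂ) * I with hw₀
  set g : ℂ × ℂ := (((y' : ℂ) + ((P₀.im - L * t : ℝ) : ℂ) * I, w₀) :
        ℂ × ℂ) + (τ : ℂ) • (((((y' - P₀.re : ℝ) : ℂ) - (t : ℂ) * I + Ψ w₀,
        w₀) : ℂ × ℂ) - ((y' : ℂ) + ((P₀.im - L * t : ℝ) : ℂ) * I, w₀)) with hg
  have x1 : ‖x.1 - g.1‖ < ω * t := (norm_fst_le (x - g)).trans_lt hx
  have x2 : ‖x.2 - g.2‖ < ω * t := (norm_snd_le (x - g)).trans_lt hx
  have g2' : g.2 = w₀ := by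
    rw [hg]; simp
  have g1' : g.1.im = (1 - τ) * (P₀.im - L * t) + τ * ((Ψ w₀).im - t) := by
    rw [hg]; simp; ring
  rw [g2'] at x2
  have x1i := (abs_im_le_norm (x.1 - g.1)).trans_lt x1
  rw [sub_im, g1', abs_lt] at x1i
  have hωt : 0 < ω * t := by positivity
  have hωt4 : ω * t ≤ t := by
    have h1 : ω * (4 * (1 + T)) * t ≤ 1 * t := mul_le_mul_of_nonneg_right hω ht.le
    nlinarith [mul_nonneg hωt.le T0]
  have hT2 : 0 ≤ T * t := by positivity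
  refine near_ax hj hk hc hkT hω0 hω ht hρ x2 ?_
    (X := (1 - τ) * (P₀.im - L * t) + τ * ((Ψ w₀).im - t)) ?_ (by linarith)
  · have f5 : P₀.im - L * t ≤ (1 - τ) * (P₀.im - L * t) + τ * ((Ψ w₀).im - t) := by
      have a2 : P₀.im - L * t ≤ (Ψ w₀).im - t := by linarith
      have a4 := mul_le_mul_of_nonneg_left a2 hτ.1
      nlinarith
    have : t ≤ L * t := by nlinarith
    linarith
  · have a1 : P₀.im - L * t ≤ P₀.im + k * t + 1 / 12 * t - t := by linarith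
    have a2 : (Ψ w₀).im - t ≤ P₀.im + k * t + 1 / 12 * t - t := by linarith
    have a3 := mul_le_mul_of_nonneg_left a1 (by linarith [hτ.2] : (0 : ℝ) ≤ 1 - τ)
    have a4 := mul_le_mul_of_nonneg_left a2 hτ.1
    nlinarith

/-- **the distance of the position to the walls at the label point of depth `L t` and at the axis
point of depth `t`** -/
theorem wall_one (Bj : B ⊆ Mj) (Bk : B ⊆ Mk) {u ρ c k K T δ L t y' H ω : ℝ} {P₀ : ℂ}
    {th : ℂ × ℂ → ℂ}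
    (hcone : ∀ v : ℂ, ‖v‖ < δ → ∀ t : ℂ, b < t.im →
      t.im < P₀.im + c * v.re - K * |v.im| - 1 * ‖v‖ → (t, (u : ℂ) + v) ∈ B)
    (hj : Cmp Mj b m Ψ u ρ P₀ c k 1 (1 / 12)) (hk : Cmp Mk b m Ψ u ρ P₀ c k 1 (1 / 12))
    (hc : |c| ≤ T) (hkT : |k| ≤ T) (hK : 0 ≤ K) (hL : L = 160 * (2 + T + K)) (ht : 0 < t)
    (hδ : 160 * t < δ) (hρ : 2 * t < ρ) (hb : b < P₀.im - 2 * (L * t)) (hu : 160 * t ≤ |u|)
    (hω0 : 0 < ω) (hω : ω * (4 * (1 + T)) ≤ 1) (dth : DifferentiableOn ℂ th (Dm Mj Mk))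
    (hth : ∀ z ∈ Dm Mj Mk, |(th z).im| < H) {N : ℕ} (hN : 80 * ((2 * T + 3 + L) / ω) + 1 ≤ N) :
    (((((y' - P₀.re : ℝ) : ℂ) - (t : ℂ) * I + Ψ ((u : ℂ) + (t : ℂ) * I),
        (u : ℂ) + (t : ℂ) * I) : ℂ × ℂ) ∈ Dm Mj Mk) ∧
    ((((y' : ℂ) + ((P₀.im - L * t : ℝ) : ℂ) * I, (u : ℂ)) : ℂ × ℂ) ∈ Dm Mj Mk) ∧
    H - |(th (((y' - P₀.re : ℝ) : ℂ) - (t : ℂ) * I + Ψ ((u : ℂ) + (t : ℂ) * I),
        (u : ℂ) + (t : ℂ) * I)).im| ≤
      2 ^ (N + 1) * (H - |(th ((y' : ℂ) + ((P₀.im - L * t : ℝ) : ℂ) * I, (u : ℂ))).im|) ∧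
    H - |(th ((y' : ℂ) + ((P₀.im - L * t : ℝ) : ℂ) * I, (u : ℂ))).im| ≤
      2 ^ (N + 1) * (H - |(th (((y' - P₀.re : ℝ) : ℂ) - (t : ℂ) * I + Ψ ((u : ℂ) + (t : ℂ) * I),
        (u : ℂ) + (t : ℂ) * I)).im|) := by
  have T0 : 0 ≤ T := (abs_nonneg _).trans hc
  have hLT : T + 2 ≤ L := by rw [hL]; nlinarith
  have hB0 := ball_vp (y' := y') Bj Bk hcone hc hK hL ht hδ hb hu
  have hsg := seg_ax (y' := y') hj hk hc hkT hω0 hω ht hρ hLT hb (R := 0)
  obtain ⟨r0, i0⟩ := psi_ax hj ht (by linarith)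
  set w₀ : ℂ := (u : ℂ) + (t : ℂ) * I with hw₀
  set z0 : ℂ × ℂ := ((y' : ℂ) + ((P₀.im - L * t : ℝ) : ℂ) * I, (u : ℂ)) with hz0
  set z1 : ℂ × ℂ := ((y' : ℂ) + ((P₀.im - L * t : ℝ) : ℂ) * I, w₀) with hz1
  set z2 : ℂ × ℂ := (((y' - P₀.re : ℝ) : ℂ) - (t : ℂ) * I + Ψ w₀, w₀) with hz2
  have hωt : 0 < ω * t := by positivity
  obtain ⟨n2, hn2, c2⟩ := Ch.path_seg (U := Dm Mj Mk) (z := z1) (w := z2) (R := ω * t) hωt hsg
  have hct : |c * t| ≤ T * t := by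
    rw [abs_mul, abs_of_pos ht]; exact mul_le_mul_of_nonneg_right hc ht.le
  have hkt : |k * t| ≤ T * t := by
    rw [abs_mul, abs_of_pos ht]; exact mul_le_mul_of_nonneg_right hkT ht.le
  rw [abs_le] at hct hkt r0 i0
  have hLt : (T + 2) * t ≤ L * t := mul_le_mul_of_nonneg_right hLT ht.le
  have hnorm : ‖z2 - z1‖ ≤ (2 * T + 3 + L) * t := by
    rw [Prod.norm_def]
    refine max_le ?_ ?_
    · refine (norm_le_of_parts (a := (T + 1) * t) (b := (T + 2 + L) * t) ?_ ?_).trans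
        (le_of_eq (by ring))
      · have e : (z2 - z1).1.re = (Ψ w₀).re - P₀.re := by
          rw [hz2, hz1]; simp; ring
        rw [e, abs_le]
        constructor <;> linarith
      · have e : (z2 - z1).1.im = (Ψ w₀).im - P₀.im - t + L * t := by
          rw [hz2, hz1]; simp; ring
        rw [e, abs_le]
        constructor <;> linarith
    · have e : (z2 - z1).2 = 0 := by rw [hz2, hz1]; simp
      rw [e, norm_zero]
      have : 0 ≤ 2 * T + 3 + L := by linarith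
      positivity
  have hnN : n2 ≤ N := by
    have h1 : 80 * ‖z2 - z1‖ / (ω * t) ≤ 80 * ((2 * T + 3 + L) / ω) := by
      rw [div_le_iff₀ hωt]
      have h2 : 80 * ((2 * T + 3 + L) / ω) * (ω * t) = 80 * ((2 * T + 3 + L) * t) := by
        field_simp
      rw [h2]
      linarith
    have h3 : (n2 : ℝ) ≤ N := by linarith
    exact_mod_cast h3
  have hz10 : ‖z1 - z0‖ = t := by
    have h1 : z1 - z0 = (0, (t : ℂ) * I) := by
      rw [hz1, hz0, hw₀]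
      refine Prod.ext ?_ ?_ <;> simp
    rw [h1, Prod.norm_def]
    simp only [norm_zero, norm_mul, Complex.norm_real, Complex.norm_I, mul_one, Real.norm_eq_abs]
    rw [abs_of_pos ht]
    exact max_eq_right ht.le
  have hw := H983.wall_ball (dth.mono hB0) (fun y hy => hth y (hB0 hy))
    (z := z1) (by rw [hz10]; linarith)
  rw [hz10] at hw
  have hmem0 : z0 ∈ Dm Mj Mk := hB0 (mem_ball_self (by positivity))
  have hmem1 : z1 ∈ Dm Mj Mk := hB0 (by rw [mem_ball, dist_eq_norm, hz10]; linarith)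
  have hmem2 : z2 ∈ Dm Mj Mk := c2.stop.2 (mem_ball_self c2.stop.1)
  obtain ⟨u1, u2⟩ := ch_wall dth hth c2
  have p0 := hth z0 hmem0
  have p1 := hth z1 hmem1
  have p2 := hth z2 hmem2
  have v1 : H - |(th z1).im| ≤ 2 * (H - |(th z0).im|) := by
    have h1 := hw.2
    have h2 : t * (159 * (H - |(th z1).im|)) ≤ t * (161 * (H - |(th z0).im|)) := by linarith
    have h3 := le_of_mul_le_mul_left h2 ht
    linarith
  have v2 : H - |(th z0).im| ≤ 2 * (H - |(th z1).im|) := by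
    have h1 := hw.1
    have h2 : t * (159 * (H - |(th z0).im|)) ≤ t * (161 * (H - |(th z1).im|)) := by linarith
    have h3 := le_of_mul_le_mul_left h2 ht
    linarith
  have hpow : (2 : ℝ) ^ n2 ≤ 2 ^ N := pow_le_pow_right₀ (by norm_num) hnN
  have hN0 : (0 : ℝ) < 2 ^ N := by positivity
  have e2 : (2 : ℝ) ^ (N + 1) = 2 ^ N * 2 := pow_succ _ _
  refine ⟨hmem2, hmem0, ?_, ?_⟩
  · rw [e2, mul_assoc]
    have h1 : H - |(th z2).im| ≤ 2 ^ N * (H - |(th z1).im|) :=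
      u1.trans (mul_le_mul_of_nonneg_right hpow (by linarith))
    exact h1.trans (mul_le_mul_of_nonneg_left v1 hN0.le)
  · rw [e2, mul_assoc]
    have h1 : H - |(th z1).im| ≤ 2 ^ N * (H - |(th z2).im|) :=
      u2.trans (mul_le_mul_of_nonneg_right hpow (by linarith))
    calc H - |(th z0).im| ≤ 2 * (H - |(th z1).im|) := v2
      _ ≤ 2 * (2 ^ N * (H - |(th z2).im|)) := by linarith
      _ = 2 ^ N * (2 * (H - |(th z2).im|)) := by ring

end

section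
variable {Λ H : ℝ} {F q : ℂ → ℂ} {b m : ℝ} {Ψ : ℂ → ℂ} {Mj Mk B : Set (ℂ × ℂ)} {A : Set ℝ}
  {P : ℝ → ℂ} {c k : ℝ → ℝ} {K y₀ u₀ σ s : ℝ} {al p th : ℂ × ℂ → ℂ} {J : ℂ → ℂ}

/-- the axis point over the label `u` in absolute coordinates -/
theorem Sx_ax (Ψ : ℂ → ℂ) (x u t : ℝ) : H560.Sx Ψ x u 1 (H226.W.ax t) =
    ((x : ℂ) - (t : ℂ) * I + Ψ ((u : ℂ) + (t : ℂ) * I), (u : ℂ) + (t : ℂ) * I) := by
  rw [H560.Sx, ax_fst, ax_snd]
  refine Prod.ext ?_ ?_
  · simp only [ofReal_one, one_mul]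
    ring
  · simp only [ofReal_one, one_mul]

/-- **the distance of the position to the walls is comparable at the label point of depth `L t` and
at the axis point of depth `t`**, all labels, all real parts -/
theorem wall_pt (W : W5 Λ H F q b m Ψ Mj Mk B A P c k K y₀ u₀ σ s al p th J) :
    ∃ L : ℝ, 1 ≤ L ∧ ∃ C : ℝ, 1 ≤ C ∧ ∃ t₀ > 0, ∀ u ∈ A, ∀ y' : ℝ, ∀ t : ℝ, 0 < t → t < t₀ →
      H560.Sx Ψ (y' - (P u).re) u 1 (H226.W.ax t) ∈ Dm Mj Mk ∧ vp P y' u (L * t) ∈ Dm Mj Mk ∧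
      H - |(th (H560.Sx Ψ (y' - (P u).re) u 1 (H226.W.ax t))).im| ≤
        C * (H - |(th (vp P y' u (L * t))).im|) ∧
      H - |(th (vp P y' u (L * t))).im| ≤
        C * (H - |(th (H560.Sx Ψ (y' - (P u).re) u 1 (H226.W.ax t))).im|) := by
  obtain ⟨T₀, hT₀⟩ := W.Uj.bd
  have hcT : ∀ u ∈ A, |c u| ≤ |T₀| := fun u hu => (hT₀ u hu).1.trans (le_abs_self _)
  have hkT : ∀ u ∈ A, |k u| ≤ |T₀| := fun u hu => (hT₀ u hu).2.trans (le_abs_self _)
  have T0 : 0 ≤ |T₀| := abs_nonneg _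
  obtain ⟨d₀, hd₀, hlab⟩ := lab_pos W.cA W.uz
  obtain ⟨η, hη, hedge⟩ := edge_pos W.cA W.cR W.hb
  obtain ⟨δ, hδ, hcone⟩ := W.coneU 1 one_pos
  have hK := W.K0
  obtain ⟨ρ₁, hρ₁, hj⟩ := W.Uj.cmp 1 one_pos (1 / 12) (by norm_num)
  obtain ⟨ρ₂, hρ₂, hk⟩ := W.Uk.cmp 1 one_pos (1 / 12) (by norm_num)
  have hmono : ∀ {M : Set (ℂ × ℂ)} {u ρ ρ' : ℝ} {P₀ : ℂ} {c k : ℝ}, ρ' ≤ ρ →
      Cmp M b m Ψ u ρ P₀ c k 1 (1 / 12) → Cmp M b m Ψ u ρ' P₀ c k 1 (1 / 12) := by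
    intro M u ρ ρ' P₀ c k h hC
    refine ⟨hC.hol.mono fun w hw => ⟨hw.1.trans_le h, hw.2.1, hw.2.2.trans_le h⟩,
      fun w h1 h2 h3 => hC.bdd w (h1.trans_le h) h2 (h3.trans_le h),
      fun t w h1 h2 h3 => hC.base t w (h1.trans_le h) h2 (h3.trans_le h),
      fun w h1 h2 h3 => hC.nt w (h1.trans_le h) h2 (h3.trans_le h)⟩
  set L : ℝ := 160 * (2 + |T₀| + K) with hL
  have hL1 : 320 ≤ L := by rw [hL]; nlinarith
  set ω : ℝ := 1 / (4 * (1 + |T₀|)) with hω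
  have hω0 : 0 < ω := by rw [hω]; positivity
  have hω1 : ω * (4 * (1 + |T₀|)) = 1 := by rw [hω]; field_simp
  obtain ⟨N, hN⟩ := exists_nat_ge (80 * ((2 * |T₀| + 3 + L) / ω) + 1)
  obtain ⟨t₀, ht₀, g1, g2, g3, g4, g5⟩ : ∃ t₀ > 0, 2 * (L * t₀) ≤ η ∧ 160 * t₀ ≤ δ ∧
      160 * t₀ ≤ d₀ ∧ 2 * t₀ ≤ ρ₁ ∧ 2 * t₀ ≤ ρ₂ := by
    have hL0 : 0 < L := by linarith
    refine ⟨min (min (η / (2 * L)) (δ / 160)) (min (d₀ / 160) (min (ρ₁ / 2) (ρ₂ / 2))),
      by positivity, ?_, ?_, ?_, ?_, ?_⟩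
    · have := (min_le_left (min (η / (2 * L)) (δ / 160))
        (min (d₀ / 160) (min (ρ₁ / 2) (ρ₂ / 2)))).trans (min_le_left _ _)
      rw [le_div_iff₀ (by positivity)] at this
      linarith
    · have := (min_le_left (min (η / (2 * L)) (δ / 160))
        (min (d₀ / 160) (min (ρ₁ / 2) (ρ₂ / 2)))).trans (min_le_right _ _)
      linarith
    · have := (min_le_right (min (η / (2 * L)) (δ / 160))
        (min (d₀ / 160) (min (ρ₁ / 2) (ρ₂ / 2)))).trans (min_le_left _ _)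
      linarith
    · have := ((min_le_right (min (η / (2 * L)) (δ / 160))
        (min (d₀ / 160) (min (ρ₁ / 2) (ρ₂ / 2)))).trans (min_le_right _ _)).trans (min_le_left _ _)
      linarith
    · have := ((min_le_right (min (η / (2 * L)) (δ / 160))
        (min (d₀ / 160) (min (ρ₁ / 2) (ρ₂ / 2)))).trans (min_le_right _ _)).trans (min_le_right _ _)
      linarith
  refine ⟨L, by linarith, 2 ^ (N + 1), one_le_pow₀ (by norm_num), t₀, ht₀, ?_⟩
  intro u hu y' t ht htt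
  have hLt : L * t < L * t₀ := mul_lt_mul_of_pos_left htt (by linarith)
  have h1 := wall_one (y' := y') W.Bj W.Bk (hcone u hu) (hmono (min_le_left ρ₁ ρ₂) (hj u hu))
    (hmono (min_le_right ρ₁ ρ₂) (hk u hu)) (hcT u hu) (hkT u hu) hK.le hL ht (by linarith)
    (lt_min (by linarith) (by linarith)) (by linarith [hedge u hu]) (by linarith [hlab u hu])
    hω0 hω1.le W.dth W.mem hN
  rw [Sx_ax]
  exact h1

/-- **walls on the label vertical give walls on the axis** -/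
theorem walls_st (W : W5 Λ H F q b m Ψ Mj Mk B A P c k K y₀ u₀ σ s al p th J) {u : ℝ} (hu : u ∈ A)
    {y' : ℝ} (h : Tendsto (fun S : ℝ => |(th (vp P y' u S)).im|) (𝓝[>] 0) (𝓝 H)) :
    Tendsto (fun t : ℝ => |(th (H560.Sx Ψ (y' - (P u).re) u 1 (H226.W.ax t))).im|) (𝓝[>] 0)
      (𝓝 H) := by
  obtain ⟨L, hL, C, hC, t₀, ht₀, hw⟩ := wall_pt W
  have h1 : Tendsto (fun t : ℝ => L * t) (𝓝[>] 0) (𝓝[>] 0) := by
    refine tendsto_nhdsWithin_iff.2 ⟨?_, ?_⟩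
    · have : Tendsto (fun t : ℝ => L * t) (𝓝 0) (𝓝 (L * 0)) :=
        (continuous_const.mul continuous_id).tendsto 0
      rw [mul_zero] at this
      exact this.mono_left nhdsWithin_le_nhds
    · filter_upwards [self_mem_nhdsWithin] with t ht
      have ht' : (0 : ℝ) < t := ht
      show (0 : ℝ) < L * t
      positivity
  have h2 := h.comp h1
  have h3 : Tendsto (fun t : ℝ => H - C * (H - |(th (vp P y' u (L * t))).im|)) (𝓝[>] 0) (𝓝 H) := by
    have : Tendsto (fun t : ℝ => H - C * (H - |(th (vp P y' u (L * t))).im|)) (𝓝[>] 0)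
        (𝓝 (H - C * (H - H))) := (h2.const_sub H |>.const_mul C).const_sub H
    rwa [sub_self, mul_zero, sub_zero] at this
  have hev : ∀ᶠ t : ℝ in 𝓝[>] 0, 0 < t ∧ t < t₀ := Ioo_mem_nhdsGT ht₀
  refine tendsto_of_tendsto_of_tendsto_of_le_of_le' h3 tendsto_const_nhds ?_ ?_
  · filter_upwards [hev] with t ht
    have := (hw u hu y' t ht.1 ht.2).2.2.1
    linarith
  · filter_upwards [hev] with t ht
    exact (W.mem _ (hw u hu y' t ht.1 ht.2).1).le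

/-- the axis point of an apex over the label, in the straight coordinates of unit `ρ` -/
theorem Sm_apex (P : ℝ → ℂ) (Ψ : ℂ → ℂ) (y u ρ y' t : ℝ) :
    H560.Sm P Ψ y u ρ ((y' : ℂ) - (t : ℂ) * I, (t : ℂ) * I) =
      H560.Sx Ψ (y + ρ * y' - (P u).re) u 1 (H226.W.ax (ρ * t)) := by
  rw [Sx_ax, H560.Sm]
  refine Prod.ext ?_ ?_
  · simp only
    push_cast
    ring_nf
  · simp only
    push_cast
    ring

/-- **walls at almost every apex over the label**, in the straight coordinates of unit `ρ` -/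
theorem walls_ae (W : W5 Λ H F q b m Ψ Mj Mk B A P c k K y₀ u₀ σ s al p th J) {u : ℝ} (hu : u ∈ A)
    {d : ℝ} (h : ∀ᵐ y' : ℝ, |y' - y₀| < d →
      Tendsto (fun S : ℝ => |(th (vp P y' u S)).im|) (𝓝[>] 0) (𝓝 H)) {y ρ r : ℝ} (hρ : 0 < ρ)
    (hr : |y - y₀| + ρ * r < d) :
    ∀ᵐ y' : ℝ, |y'| ≤ r → Tendsto (fun t : ℝ =>
      |((th ∘ H560.Sm P Ψ y u ρ) ((y' : ℂ) - (t : ℂ) * I, (t : ℂ) * I)).im|) (𝓝[>] 0) (𝓝 H) := by
  have hq1 : Measure.QuasiMeasurePreserving (fun y' : ℝ => ρ * y') volume volume := by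
    refine ⟨measurable_const_mul ρ, ?_⟩
    rw [Real.map_volume_mul_left hρ.ne']
    exact Measure.smul_absolutelyContinuous
  have hq : Measure.QuasiMeasurePreserving (fun y' : ℝ => y + ρ * y') volume volume :=
    (measurePreserving_add_left volume y).quasiMeasurePreserving.comp hq1
  filter_upwards [hq.ae h] with y' hy hyr
  have h1 : |y + ρ * y' - y₀| < d := by
    have e : y + ρ * y' - y₀ = (y - y₀) + ρ * y' := by ring
    rw [e]
    refine (abs_add_le _ _).trans_lt ?_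
    rw [abs_mul, abs_of_pos hρ]
    have := mul_le_mul_of_nonneg_left hyr hρ.le
    linarith
  have h2 := walls_st W hu (hy h1)
  have h3 : Tendsto (fun t : ℝ => ρ * t) (𝓝[>] 0) (𝓝[>] 0) := by
    refine tendsto_nhdsWithin_iff.2 ⟨?_, ?_⟩
    · have : Tendsto (fun t : ℝ => ρ * t) (𝓝 0) (𝓝 (ρ * 0)) :=
        (continuous_const.mul continuous_id).tendsto 0
      rw [mul_zero] at this
      exact this.mono_left nhdsWithin_le_nhds
    · filter_upwards [self_mem_nhdsWithin] with t ht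
      have ht' : (0 : ℝ) < t := ht
      show (0 : ℝ) < ρ * t
      positivity
  refine (h2.comp h3).congr fun t => ?_
  simp only [Function.comp_apply]
  rw [Sm_apex]

end

end Vale.Agent.P097.H217.St
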